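import Vale.Agent.P223.X.VolU

/-! P223, block B7 (boxes): Riemannian densities in the boxes, by the chain rule. -/

namespace Vale.Agent.P223.R2.H670

open scoped ContDiff
open MeasureTheory Vale.Agent.P223.H Vale.Agent.P223.X

/-- the product of the derivatives of `x i` at `y` -/
theorem prod_pos {n : ℕ} {X I : Type} [TopologicalSpace X] {c : X → J.Ch n X} (B : Box c I)
    (i : I) (y : E n) : 0 < ∏ k, dth (B.r i) (y k) :=
  Finset.prod_pos fun _ _ => BoxU.dth_pos (B.pos i) _

/-- density of the metric `g` in the box `i` -/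
theorem dens_G {n : ℕ} {X I : Type} [TopologicalSpace X] {c : X → J.Ch n X} (B : Box c I)
    (g : X → J.Mtx n) (i : I) (y : E n) :
    dens (B.G g i) y = (∏ k, dth (B.r i) (y k)) * √(g (B.a i) (B.x i y)).det := by
  show √(B.G g i y).det = _
  rw [VolU.det_G, Real.sqrt_mul (sq_nonneg _), Real.sqrt_sq (prod_pos B i y).le]

/-- the derivative of `x i` as a matrix -/
theorem D_eq {n : ℕ} {X I : Type} [TopologicalSpace X] {c : X → J.Ch n X} (B : Box c I)
    (i : I) (y v : E n) :
    B.D i y v = Matrix.toLin' (Matrix.diagonal fun k => dth (B.r i) (y k)) v := by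
  funext k
  rw [Matrix.toLin'_apply, Matrix.mulVec_diagonal]
  rfl

/-- Riemannian densities in the boxes: `L` is the derivative of a map in the charts, `M` its
derivative in the boxes. -/
theorem boxdet {n : ℕ} {X Y I I' : Type} [TopologicalSpace X] [TopologicalSpace Y]
    {c : X → J.Ch n X} {c' : Y → J.Ch n Y} (B : Box c I) (B' : Box c' I') (j : I) (i : I')
    (y w : E n) (L M : E n →L[ℝ] E n) (g : Y → J.Mtx n) (g0 : X → J.Mtx n) (q : ℝ)
    (hL : ∀ v, L (B'.D i y v) = B.D j w (M v))
    (hq : q * √(g (B'.a i) (B'.x i y)).det = √(g0 (B.a j) (B.x j w)).det * |L.det|) :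
    dens (B.G g0 j) w * |M.det| = q * dens (B'.G g i) y := by
  have e : (L : E n →ₗ[ℝ] E n) ∘ₗ Matrix.toLin' (Matrix.diagonal fun k => dth (B'.r i) (y k)) =
      Matrix.toLin' (Matrix.diagonal fun k => dth (B.r j) (w k)) ∘ₗ (M : E n →ₗ[ℝ] E n) := by
    refine LinearMap.ext fun v => ?_
    rw [LinearMap.comp_apply, LinearMap.comp_apply, ← D_eq, ContinuousLinearMap.coe_coe,
      ContinuousLinearMap.coe_coe, ← D_eq]
    exact hL v
  have h1 : L.det * ∏ k, dth (B'.r i) (y k) = (∏ k, dth (B.r j) (w k)) * M.det := by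
    have h2 := congrArg LinearMap.det e
    rw [LinearMap.det_comp, LinearMap.det_comp, LinearMap.det_toLin', LinearMap.det_toLin',
      Matrix.det_diagonal, Matrix.det_diagonal] at h2
    exact h2
  have h3 : |L.det| * ∏ k, dth (B'.r i) (y k) = (∏ k, dth (B.r j) (w k)) * |M.det| := by
    have h4 := congrArg abs h1
    rwa [abs_mul, abs_mul, abs_of_pos (prod_pos B' i y), abs_of_pos (prod_pos B j w)] at h4
  rw [dens_G, dens_G]
  calc (∏ k, dth (B.r j) (w k)) * √(g0 (B.a j) (B.x j w)).det * |M.det|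
      = √(g0 (B.a j) (B.x j w)).det * ((∏ k, dth (B.r j) (w k)) * |M.det|) := by ring
    _ = √(g0 (B.a j) (B.x j w)).det * |L.det| * ∏ k, dth (B'.r i) (y k) := by rw [← h3]; ring
    _ = q * √(g (B'.a i) (B'.x i y)).det * ∏ k, dth (B'.r i) (y k) := by rw [← hq]
    _ = _ := by ring

end Vale.Agent.P223.R2.H670
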