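import Vale.Agent.P223.R2.H84.SpecSub
import Mathlib.Topology.Covering.Quotient

/-! P223, row E1 (helper670): the image of a covering in a covering. -/

namespace Vale.Agent.P223.R2.H670

open scoped Topology

set_option linter.all false

theorem specComp : H84.SpecComp := by
  intro Y V W Δ Γ _ _ _ _ _ _ _ _ _ _ _ _ a π' ρ p hΔc hΔf ha has hao hΓc hΓf hπ hπs hπo hap hρ
  -- `p` is a local homeomorphism, its range is open and closed
  have hloc : IsLocalHomeomorph p := by
    refine IsLocalHomeomorph.of_comp (g := π') ?_ hπ.isLocalHomeomorph p.continuous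
    have e : (π' ∘ p : V → Y) = a := funext hap
    rw [e]
    exact ha.isLocalHomeomorph
  have hop : IsOpen (Set.range p) := hloc.isOpenMap.isOpen_range
  have hcl : IsClosed (Set.range p) := by
    rw [← isOpen_compl_iff, isOpen_iff_forall_mem_open]
    intro w hw
    obtain ⟨v, hv⟩ := has (π' w)
    obtain ⟨γ, hγ⟩ := (hπo (p v) w).1 ((hap v).trans hv)
    refine ⟨(fun x => γ⁻¹ • x) ⁻¹' Set.range p, ?_, hop.preimage (hΓc γ⁻¹), v, ?_⟩
    · rintro x ⟨v₁, h1⟩ ⟨v₂, h2⟩
      have hx : γ • p v₁ = p v₂ := by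
        rw [h1, h2]
        exact smul_inv_smul γ x
      have h3 : a v₁ = a v₂ := by
        rw [← hap, ← hap, ← hx]
        exact (hπo _ _).2 ⟨γ, rfl⟩
      obtain ⟨g, rfl⟩ := (hao _ _).1 h3
      rw [hρ] at hx
      have h4 : (ρ g)⁻¹ * γ = 1 := hΓf _ (p v₁) (by rw [mul_smul, hx, inv_smul_smul])
      have h5 : γ = ρ g := (inv_mul_eq_one.1 h4).symm
      exact hw ⟨g • v, by rw [hρ, ← h5, hγ]⟩
    · show p v = γ⁻¹ • w
      rw [← hγ, inv_smul_smul]
  have hmem : ∀ (γ : ρ.range) (w : Set.range p), (γ : Γ) • (w : W) ∈ Set.range p := by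
    rintro ⟨-, g, rfl⟩ ⟨-, v, rfl⟩
    exact ⟨g • v, hρ g v⟩
  let act : MulAction ρ.range (Set.range p) :=
    { smul := fun γ w => ⟨(γ : Γ) • (w : W), hmem γ w⟩
      one_smul := fun w => Subtype.ext (one_smul Γ (w : W))
      mul_smul := fun γ δ w => Subtype.ext (mul_smul (γ : Γ) (δ : Γ) (w : W)) }
  have hact : ∀ (γ : ρ.range) (w : Set.range p), ((γ • w : Set.range p) : W) = (γ : Γ) • (w : W) :=
    fun _ _ => rfl
  let ι : C(Set.range p, W) := ⟨Subtype.val, continuous_subtype_val⟩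
  have hιs : Function.Surjective (π'.comp ι) := fun y => by
    obtain ⟨v, rfl⟩ := has y
    exact ⟨⟨p v, v, rfl⟩, hap v⟩
  have hιo : ∀ x y : Set.range p, π'.comp ι x = π'.comp ι y ↔ ∃ γ : ρ.range, γ • x = y := by
    intro x y
    constructor
    · intro h
      obtain ⟨-, v₁, rfl⟩ := x
      obtain ⟨-, v₂, rfl⟩ := y
      have h3 : a v₁ = a v₂ := by
        rw [← hap, ← hap]
        exact h
      obtain ⟨g, rfl⟩ := (hao _ _).1 h3
      exact ⟨⟨ρ g, g, rfl⟩, Subtype.ext (hρ g v₁).symm⟩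
    · rintro ⟨γ, rfl⟩
      exact (hπo _ _).2 ⟨γ, rfl⟩
  have hιc : ∀ γ : ρ.range, Continuous fun w : Set.range p => γ • w := fun γ =>
    ((hΓc γ).comp continuous_subtype_val).subtype_mk _
  have hιf : ∀ (γ : ρ.range) (w : Set.range p), γ • w = w → γ = 1 := fun γ w h =>
    Subtype.ext (hΓf γ w (congrArg Subtype.val h))
  have hιop : IsOpenMap (π'.comp ι) := hπ.isOpenMap.comp hop.isOpenMap_subtype_val
  have hq : IsQuotientCoveringMap (π'.comp ι) ρ.range :=
    { (hιop.isQuotientMap (π'.comp ι).continuous hιs) with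
      continuous_const_smul := hιc
      apply_eq_iff_mem_orbit := fun {e₁ e₂} => by
        rw [eq_comm, hιo, MulAction.mem_orbit_iff]
      disjoint := fun e => by
        obtain ⟨φ, he, hφ⟩ := hπ.isLocalHomeomorph (e : W)
        refine ⟨Subtype.val ⁻¹' φ.source, (φ.open_source.preimage continuous_subtype_val).mem_nhds he,
          ?_⟩
        rintro g ⟨-, ⟨x, hx, rfl⟩, hy⟩
        have h1 : π' (x : W) = π' ((g • x : Set.range p) : W) := (hπo _ _).2 ⟨g, rfl⟩
        have h2 : (x : W) = ((g • x : Set.range p) : W) := by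
          refine φ.injOn hx hy ?_
          rw [← hφ]
          exact h1
        exact hιf g x (Subtype.ext h2.symm) }
  refine ⟨Set.range p, inferInstance, act, ι, ⟨fun v => ⟨p v, v, rfl⟩, by fun_prop⟩, inferInstance,
    hcl.isClosedEmbedding_subtypeVal, fun _ _ => rfl, hιc, hιf, hq.isCoveringMap, hιs, hιo,
    fun _ => rfl, ?_⟩
  rintro ⟨-, v, rfl⟩
  exact ⟨v, rfl⟩

end Vale.Agent.P223.R2.H670
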